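import Vale.Agent.P245.Bdl.B1
import Vale.Agent.P254.SP.H620.DK
import Vale.Agent.P245.H792.Sym

/-! # P245, row FIN: vocabulary for matrix fields (definitions only)

Everything at one level `b`, for the law `q = N p_b`, `p_b` the density of `μ * γ_b`. -/

open MeasureTheory Real Set Filter Topology

namespace Vale.Agent.P245.H485

open LS E1 Vale.Agent.P254.SP620 H792

variable {n : ℕ}

/-- the matrix field `P_s(S)`, `P_s(x) = x² / (s² + x²)` -/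
noncomputable def PS (s : ℝ) (S : (Fin n → ℝ) → Matrix (Fin n) (Fin n) ℝ) (y : Fin n → ℝ) :
    Matrix (Fin n) (Fin n) ℝ := mf (Ps s) (S y)

/-- all entries of `A` are smooth with bounded derivatives -/
def SBm (A : (Fin n → ℝ) → Matrix (Fin n) (Fin n) ℝ) : Prop := ∀ i j, SB fun y => A y i j

/-- `E_q |A|²` (Frobenius norm) -/
noncomputable def mSq (μ : Measure (Fin n → ℝ)) (b : ℝ) (N : (Fin n → ℝ) → ℝ)
    (A : (Fin n → ℝ) → Matrix (Fin n) (Fin n) ℝ) : ℝ := EY μ b fun y => N y * fr (A y)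

/-- `E_q |D A|²` -/
noncomputable def mDE (μ : Measure (Fin n → ℝ)) (b : ℝ) (N : (Fin n → ℝ) → ℝ)
    (A : (Fin n → ℝ) → Matrix (Fin n) (Fin n) ℝ) : ℝ :=
  EY μ b fun y => N y * ∑ e, ∑ i, ∑ j, pd (fun z => A z i j) e y ^ 2

/-- `E_q |D A (1 - Q)|²`, `1 - Q` acting on the derivative index -/
noncomputable def mRE (μ : Measure (Fin n → ℝ)) (b : ℝ) (N : (Fin n → ℝ) → ℝ)
    (A Q : (Fin n → ℝ) → Matrix (Fin n) (Fin n) ℝ) : ℝ :=
  EY μ b fun y => N y * ∑ e, ∑ i, ∑ j,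
    (pd (fun z => A z i j) e y - ∑ f, Q y e f * pd (fun z => A z i j) f y) ^ 2

/-- `E_q |D φ (1 - Q)|²` for a vector field `φ` -/
noncomputable def vRE (μ : Measure (Fin n → ℝ)) (b : ℝ) (N : (Fin n → ℝ) → ℝ)
    (φ : Fin n → (Fin n → ℝ) → ℝ) (Q : (Fin n → ℝ) → Matrix (Fin n) (Fin n) ℝ) : ℝ :=
  EY μ b fun y => N y * ∑ e, ∑ i, (pd (φ i) e y - ∑ f, Q y e f * pd (φ i) f y) ^ 2

/-- `E_q |div_q Q|²` -/
noncomputable def mDiv (μ : Measure (Fin n → ℝ)) (b : ℝ) (N : (Fin n → ℝ) → ℝ)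
    (Q : (Fin n → ℝ) → Matrix (Fin n) (Fin n) ℝ) : ℝ :=
  EY μ b fun y => N y * ∑ e,
    (∑ f, (pd (fun z => Q z e f) f y + Q y e f * (sN N f y - DV μ b f y))) ^ 2

/-- `E_q tr (Aᵀ D²V_b A)` (sum over the columns of `A`) -/
noncomputable def mFl (μ : Measure (Fin n → ℝ)) (b : ℝ) (N : (Fin n → ℝ) → ℝ)
    (A : (Fin n → ℝ) → Matrix (Fin n) (Fin n) ℝ) : ℝ :=
  EY μ b fun y => N y * ∑ k, ∑ i, ∑ j, PV μ b i j y * A y i k * A y j k

/-- `S = κ sym(D f)` -/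
noncomputable def Sf (κ : ℝ) (f : Fin n → (Fin n → ℝ) → ℝ) (y : Fin n → ℝ) :
    Matrix (Fin n) (Fin n) ℝ := Matrix.of fun i j => κ / 2 * (pd (f i) j y + pd (f j) i y)

/-- the truncated square `E_q tr (S² c² / (c² + S²))` -/
noncomputable def mTr (μ : Measure (Fin n → ℝ)) (b : ℝ) (N : (Fin n → ℝ) → ℝ) (c : ℝ)
    (S : (Fin n → ℝ) → Matrix (Fin n) (Fin n) ℝ) : ℝ :=
  EY μ b fun y => N y * (mf (fun x => x ^ 2 * (c ^ 2 / (c ^ 2 + x ^ 2))) (S y)).trace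

end Vale.Agent.P245.H485
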