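import Vale.Agent.P245.H485.Small

/-! # P245, row FIN: the static contradiction, numbers and functions of the scale only

`fin_num`: `scale_contra` with the choice of constants `t = ε b`, `θ = c b`, `b' = 1`, slack
`≤ Ka I`, and `|div Q|²` replaced by `B + Fl + g0 √q`, `g0² ≤ Kg I / κ`. -/

open MeasureTheory Real Set Filter Topology

namespace Vale.Agent.P245.H485

theorem fin_num {C0 ε c Ka Kg al2 φ : ℝ} (hC0 : 0 < C0) (hε : 0 < ε) (hc : 0 < c)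
    (hKa : 0 ≤ Ka) (hKg : 0 ≤ Kg) (hal2 : 0 ≤ al2)
    (hsum : 9 * ε / C0 + 2424 * ε + φ ≤ 3 / 20) :
    ∃ K : ℝ, 0 < K ∧ ∀ (κ b g0 β I H al1 S2 G cF : ℝ) (q A B Fl Co : ℝ → ℝ),
      K ≤ κ → 2 * (κ / C0) ≤ b → b ≤ 3 * (κ / C0) → 0 ≤ cF → 2 * b * cF / κ ≤ φ →
      0 ≤ g0 → g0 ^ 2 ≤ Kg * I / κ → β ≤ Ka * I → 0 ≤ I → 0 < S2 → al1 ≤ 1 / 100 →
      κ * I ≤ 3 * S2 → H ≤ κ * I → 99 / 100 * S2 ≤ G → G ≤ S2 →
      (∀ s ∈ Ioc (0 : ℝ) 1, 0 ≤ q s) → (∀ s ∈ Ioc (0 : ℝ) 1, 0 ≤ A s) →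
      (∀ s ∈ Ioc (0 : ℝ) 1, 0 ≤ B s) → (∀ s ∈ Ioc (0 : ℝ) 1, 0 ≤ Fl s) →
      (∀ s ∈ Ioc (0 : ℝ) 1, (c * b) / 2 * (q s - Co s) - β - (ε * b) / 2 * (I + (c * b) * B s) ≤
        κ * (√((c * b) * A s) + √(q s / (ε * b)) + √(B s + Fl s + g0 * √(q s)) + √I +
          √((ε * b) / b * (I + (c * b) * B s))) ^ 2) →
      (∀ s ∈ Ioc (0 : ℝ) 1, Co s ≤ al1 * q s + al2 / b * H + 2 * b * Fl s) →
      IntervalIntegrable (fun s => q s * (4 * s)) volume 0 1 →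
      IntervalIntegrable (fun s => A s * (4 * s)) volume 0 1 →
      IntervalIntegrable (fun s => B s * (4 * s)) volume 0 1 →
      IntervalIntegrable (fun s => Fl s * (4 * s)) volume 0 1 →
      ∫ s in (0 : ℝ)..1, q s * (4 * s) = 2 * G →
      ∫ s in (0 : ℝ)..1, A s * (4 * s) ≤ 22 / 25 * (S2 / κ) →
      ∫ s in (0 : ℝ)..1, B s * (4 * s) ≤ 3 * (S2 / κ) →
      ∫ s in (0 : ℝ)..1, Fl s * (4 * s) ≤ cF * (S2 / κ) → False := by
  obtain ⟨K, hK0, hK⟩ := hsmall_of (C0 := C0) (ε := ε) (c := c) (C := Ka) (al2 := al2)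
    (cG := 3 * Kg + 1) (φ := φ) hC0 hε hc hKa hal2 (by positivity) hsum
  refine ⟨K, hK0, ?_⟩
  intro κ b g0 β I H al1 S2 G cF q A B Fl Co hκ hb1 hb2 hcF hφ hg0 hg1 hβ hI hS2 hal1 hIS hH hG1
    hG2 hq hA hB hF hLU hHID iq iA iB iF Iq IA IB IF
  have hκ0 : 0 < κ := by linarith
  have hb : 0 < b := lt_of_lt_of_le (by positivity) hb1
  have hsm := hK κ b cF hκ hb1 hb2 hcF hφ
  have hg2 : κ ^ 2 * g0 ^ 2 ≤ 3 * Kg * S2 := by
    have h1 : κ ^ 2 * g0 ^ 2 ≤ κ ^ 2 * (Kg * I / κ) := mul_le_mul_of_nonneg_left hg1 (by positivity)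
    have h2 : κ ^ 2 * (Kg * I / κ) = Kg * (κ * I) := by field_simp
    have h3 : Kg * (κ * I) ≤ Kg * (3 * S2) := mul_le_mul_of_nonneg_left hIS hKg
    linarith
  have hDv : ∀ s ∈ Ioc (0 : ℝ) 1, 0 ≤ B s + Fl s + g0 * √(q s) := fun s hs => by
    have := hB s hs
    have := hF s hs
    positivity
  have hBO : ∀ s ∈ Ioc (0 : ℝ) 1, B s + Fl s + g0 * √(q s) ≤
      B s + Fl s + (κ ^ 2 * g0 ^ 2 + q s) / 2 / κ := fun s hs => by
    have h1 : g0 * √(q s) ≤ (κ ^ 2 * g0 ^ 2 + q s) / 2 / κ := by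
      rw [le_div_iff₀ hκ0]
      nlinarith [sq_nonneg (κ * g0 - √(q s)), sq_sqrt (hq s hs)]
    linarith
  have i4 : IntervalIntegrable (fun s : ℝ => 4 * s) volume 0 1 :=
    (continuous_const.mul continuous_id).intervalIntegrable _ _
  have iG : IntervalIntegrable (fun s => (κ ^ 2 * g0 ^ 2 + q s) / 2 * (4 * s)) volume 0 1 := by
    have e : (fun s => (κ ^ 2 * g0 ^ 2 + q s) / 2 * (4 * s)) =
        fun s => (κ ^ 2 * g0 ^ 2 / 2) * (4 * s) + 1 / 2 * (q s * (4 * s)) := by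
      funext s; ring
    rw [e]
    exact (i4.const_mul _).add (iq.const_mul _)
  have IG : ∫ s in (0 : ℝ)..1, (κ ^ 2 * g0 ^ 2 + q s) / 2 * (4 * s) ≤ (3 * Kg + 1) * S2 := by
    have e : (fun s => (κ ^ 2 * g0 ^ 2 + q s) / 2 * (4 * s)) =
        fun s => (κ ^ 2 * g0 ^ 2 / 2) * (4 * s) + 1 / 2 * (q s * (4 * s)) := by
      funext s; ring
    rw [e, intervalIntegral.integral_add (i4.const_mul _) (iq.const_mul _),
      intervalIntegral.integral_const_mul, intervalIntegral.integral_const_mul,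
      intervalIntegral.integral_const_mul, integral_id, Iq]
    linarith
  have hθ : 0 < c * b := by positivity
  have ht : 0 < ε * b := by positivity
  refine scale_contra (κ := κ) (b := b) (t := ε * b) (θ := c * b) (β := β) (I := I) (H := H)
    (al1 := al1) (al2 := al2) (S2 := S2) (G := G) (b' := 1) (cF := cF) (cG := 3 * Kg + 1)
    (β0 := Ka / κ) (q := q) (A := A) (B := B) (Dv := fun s => B s + Fl s + g0 * √(q s)) (Fl := Fl)
    (Gm := fun s => (κ ^ 2 * g0 ^ 2 + q s) / 2) (Co := Co)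
    hκ0 hb ht hθ one_pos hI hS2 hal1 hal2 (by positivity) hq hA hB hDv hLU hHID hBO iq iA iB iF iG
    Iq IA IB IF IG hG1 hG2 hIS hH ?_ hsm
  calc β ≤ Ka * I := hβ
    _ = Ka / κ * (κ * I) := by field_simp

end Vale.Agent.P245.H485
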