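import Vale.Agent.P245.H485.FinDefs
import Vale.Agent.P245.H485.FinNum
import Vale.Agent.P245.H188.Hid4
import Vale.Agent.P245.H736.PSf

/-! # P245, row FIN: the static contradiction for a symmetric matrix field `S`

`fin_S`: Lemma U at the scales `s ∈ (0,1]` (`LUS`), the scale integrals (`MCout`), and the numbers
attached to `S` are contradictory for `κ` large.  The hiddenness of `P_s(S)` is imported
(`H188.hid_mf`). -/

open MeasureTheory Real Set Filter Topology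

namespace Vale.Agent.P245.H485

open LS E1 Vale.Agent.P254.SP620 H792

variable {n : ℕ}

/-- `E_q Σ (∂_e S_ij - ∂_i S_ej)²` -/
noncomputable def mAs (μ : Measure (Fin n → ℝ)) (b : ℝ) (N : (Fin n → ℝ) → ℝ)
    (S : (Fin n → ℝ) → Matrix (Fin n) (Fin n) ℝ) : ℝ :=
  EY μ b fun y => N y * ∑ e, ∑ i, ∑ j, (pd (fun z => S z i j) e y - pd (fun z => S z e j) i y) ^ 2

/-- the scale integrals of the quantities attached to `P_s(S)`, `0 < s ≤ 1` -/
structure MCout (μ : Measure (Fin n → ℝ)) (b : ℝ) (N : (Fin n → ℝ) → ℝ)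
    (S : (Fin n → ℝ) → Matrix (Fin n) (Fin n) ℝ) : Prop where
  iq : IntervalIntegrable (fun s => mSq μ b N (PS s S) * (4 * s)) volume 0 1
  iA : IntervalIntegrable (fun s => mRE μ b N (PS s S) (PS s S) * (4 * s)) volume 0 1
  iB : IntervalIntegrable (fun s => mDE μ b N (PS s S) * (4 * s)) volume 0 1
  iF : IntervalIntegrable (fun s => mFl μ b N (PS s S) * (4 * s)) volume 0 1
  Iq : ∫ s in (0 : ℝ)..1, mSq μ b N (PS s S) * (4 * s) = 2 * mTr μ b N 1 S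
  IA : ∀ d : ℝ, 0 < d → ∫ s in (0 : ℝ)..1, mRE μ b N (PS s S) (PS s S) * (4 * s) ≤
    (1 + d) * (26 / 15) * mDE μ b N S + (1 + 1 / d) * (104 / 45) * mAs μ b N S
  IB : ∫ s in (0 : ℝ)..1, mDE μ b N (PS s S) * (4 * s) ≤ 26 / 5 * mDE μ b N S
  IF : ∫ s in (0 : ℝ)..1, mFl μ b N (PS s S) * (4 * s) ≤ 2 * mFl μ b N S
  nq : ∀ s ∈ Ioc (0 : ℝ) 1, 0 ≤ mSq μ b N (PS s S)
  nA : ∀ s ∈ Ioc (0 : ℝ) 1, 0 ≤ mRE μ b N (PS s S) (PS s S)
  nB : ∀ s ∈ Ioc (0 : ℝ) 1, 0 ≤ mDE μ b N (PS s S)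
  nF : ∀ s ∈ Ioc (0 : ℝ) 1, 0 ≤ mFl μ b N (PS s S)

/-- Lemma U for `Ψ = Q = P_s(S)`, channel strength `θ`, noise `t` -/
def LUS (μ : Measure (Fin n → ℝ)) (b κ t θ g0 β : ℝ) (N : (Fin n → ℝ) → ℝ)
    (S : (Fin n → ℝ) → Matrix (Fin n) (Fin n) ℝ) : Prop :=
  ∀ s ∈ Ioc (0 : ℝ) 1, ∀ (m : ℕ) (e : Fin m ≃ Fin n × Fin n),
    θ / 2 * (mSq μ b N (PS s S) - H468.Co (gsn m) μ b N (fun a y => PS s S y (e a).1 (e a).2)
        (H468.RL θ fun a y => PS s S y (e a).1 (e a).2)) - β -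
      t / 2 * (FI μ b N + θ * mDE μ b N (PS s S)) ≤
    κ * (√(θ * mRE μ b N (PS s S) (PS s S)) + √(mSq μ b N (PS s S) / t) +
      √(mDE μ b N (PS s S) + mFl μ b N (PS s S) + g0 * √(mSq μ b N (PS s S))) + √(FI μ b N) +
      √(t / b * (FI μ b N + θ * mDE μ b N (PS s S)))) ^ 2

theorem fin_S {C0 ε Ka Kg h : ℝ} (hC0 : 0 < C0) (hε : 0 < ε) (hKa : 0 ≤ Ka) (hKg : 0 ≤ Kg)
    (hh : h ≤ 1 / 20000) (hsum : 9 * ε / C0 + 2424 * ε + 12 * h ≤ 3 / 20) :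
    ∃ K : ℝ, 0 < K ∧ ∀ {n : ℕ} (ρ0 : (Fin n → ℝ) → ℝ) (R κ b g0 β : ℝ)
      (N : (Fin n → ℝ) → ℝ) (S : (Fin n → ℝ) → Matrix (Fin n) (Fin n) ℝ),
      LCd ρ0 → IsProbabilityMeasure (mu ρ0) → CSupp (mu ρ0) R → ExpM (mu ρ0) 1 →
      K ≤ κ → 2 * (κ / C0) ≤ b → b ≤ 3 * (κ / C0) → Pos N → EY (mu ρ0) b N = 1 →
      (∀ y, (S y).transpose = S y) → SBm S →
      0 ≤ g0 → g0 ^ 2 ≤ Kg * FI (mu ρ0) b N / κ → β ≤ Ka * FI (mu ρ0) b N →
      0 ≤ FI (mu ρ0) b N → HE (mu ρ0) b N ≤ κ * FI (mu ρ0) b N →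
      0 < mSq (mu ρ0) b N S → κ * FI (mu ρ0) b N ≤ 3 * mSq (mu ρ0) b N S →
      mDE (mu ρ0) b N S ≤ (1 + 2 * h) * (mSq (mu ρ0) b N S / (2 * κ)) →
      mAs (mu ρ0) b N S ≤ h * (mSq (mu ρ0) b N S / (4 * κ)) →
      0 ≤ mFl (mu ρ0) b N S → b * mFl (mu ρ0) b N S ≤ 3 * h * mSq (mu ρ0) b N S →
      99 / 100 * mSq (mu ρ0) b N S ≤ mTr (mu ρ0) b N 1 S →
      mTr (mu ρ0) b N 1 S ≤ mSq (mu ρ0) b N S →
      MCout (mu ρ0) b N S →
      LUS (mu ρ0) b κ (ε * b) ((1 / 1000000) * b) g0 β N S → False := by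
  obtain ⟨K, hK0, hK⟩ := fin_num (C0 := C0) (ε := ε) (c := 1 / 1000000) (Ka := Ka) (Kg := Kg)
    (al2 := 1600) (φ := 12 * h) hC0 hε (by norm_num) hKa hKg (by norm_num) hsum
  refine ⟨max K (400 * C0), lt_max_of_lt_left hK0, ?_⟩
  intro n ρ0 R κ b g0 β N S hρ hprob hR hexp hκ hb1 hb2 hN hN1 hsym hSB hg0 hg1 hβ hI hHE hS2
    hIS hT hAs hF0 hFl hcr1 hcr2 hMC hLU
  have hκ1 : K ≤ κ := (le_max_left _ _).trans hκ
  have hκ2 : 400 * C0 ≤ κ := (le_max_right _ _).trans hκ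
  have hκ0 : 0 < κ := by linarith
  have hb : 0 < b := lt_of_lt_of_le (by positivity) hb1
  have hb800 : 800 ≤ b := by
    have h1 : 400 ≤ κ / C0 := by rw [le_div_iff₀ hC0]; exact hκ2
    linarith
  let e : Fin (n * n) ≃ Fin n × Fin n := finProdFinEquiv.symm
  have hU := fun s hs => hLU s hs (n * n) e
  -- hiddenness
  have hHID : ∀ s ∈ Ioc (0 : ℝ) 1,
      H468.Co (gsn (n * n)) (mu ρ0) b N (fun a y => PS s S y (e a).1 (e a).2)
        (H468.RL ((1 / 1000000) * b) fun a y => PS s S y (e a).1 (e a).2) ≤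
      (58 / 10000 : ℝ) * mSq (mu ρ0) b N (PS s S) + 1600 / b * HE (mu ρ0) b N +
        2 * b * mFl (mu ρ0) b N (PS s S) := by
    intro s hs
    have h1 := H188.hid_mf e hρ hR hexp hb hN hN1 (S := S) hsym (F := Ps s)
      (fun x => by rw [abs_of_nonneg (Ps_nonneg s x)]; exact Ps_le_one s x)
      (fun i j => H736.SBM_Ps (S := S) hSB hsym hs.1 i j) (t := (1 / 1000000) * b) (α := 400)
      (by positivity) (by norm_num) (by linarith)
    have e1 : 2 * (400 * ((1 / 1000000) * b) / b + 1 / 400) = (58 / 10000 : ℝ) := by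
      field_simp; norm_num
    rw [e1] at h1
    have e2 : (4 * 400 / b : ℝ) = 1600 / b := by norm_num
    rw [e2] at h1
    exact h1
  have hS2κ : 0 < mSq (mu ρ0) b N S / κ := by positivity
  refine hK κ b g0 β (FI (mu ρ0) b N) (HE (mu ρ0) b N) (58 / 10000) (mSq (mu ρ0) b N S)
    (mTr (mu ρ0) b N 1 S) (2 * κ * mFl (mu ρ0) b N S / mSq (mu ρ0) b N S)
    (fun s => mSq (mu ρ0) b N (PS s S)) (fun s => mRE (mu ρ0) b N (PS s S) (PS s S))
    (fun s => mDE (mu ρ0) b N (PS s S)) (fun s => mFl (mu ρ0) b N (PS s S))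
    (fun s => H468.Co (gsn (n * n)) (mu ρ0) b N (fun a y => PS s S y (e a).1 (e a).2)
        (H468.RL ((1 / 1000000) * b) fun a y => PS s S y (e a).1 (e a).2))
    hκ1 hb1 hb2 (by positivity) ?_ hg0 hg1 hβ hI hS2 (by norm_num) hIS hHE hcr1 hcr2
    hMC.nq hMC.nA hMC.nB hMC.nF hU hHID hMC.iq hMC.iA hMC.iB hMC.iF hMC.Iq ?_ ?_ ?_
  · -- flats
    have e1 : 2 * b * (2 * κ * mFl (mu ρ0) b N S / mSq (mu ρ0) b N S) / κ =
        4 * (b * mFl (mu ρ0) b N S) / mSq (mu ρ0) b N S := by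
      field_simp
      ring
    rw [e1, div_le_iff₀ hS2]
    linarith
  · -- `A`
    refine (hMC.IA (1 / 200) (by norm_num)).trans ?_
    have e1 : mSq (mu ρ0) b N S / (2 * κ) = mSq (mu ρ0) b N S / κ / 2 := by field_simp
    have e2 : mSq (mu ρ0) b N S / (4 * κ) = mSq (mu ρ0) b N S / κ / 4 := by field_simp
    rw [e1] at hT
    rw [e2] at hAs
    have h1 : mDE (mu ρ0) b N S ≤ (10001 / 10000) * (mSq (mu ρ0) b N S / κ / 2) := by
      refine hT.trans (mul_le_mul_of_nonneg_right (by linarith) (by positivity))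
    have h2 : mAs (mu ρ0) b N S ≤ (1 / 20000) * (mSq (mu ρ0) b N S / κ / 4) := by
      refine hAs.trans (mul_le_mul_of_nonneg_right hh (by positivity))
    have h3 : (1 + 1 / 200 : ℝ) * (26 / 15) * mDE (mu ρ0) b N S ≤
        (1 + 1 / 200 : ℝ) * (26 / 15) * ((10001 / 10000) * (mSq (mu ρ0) b N S / κ / 2)) :=
      mul_le_mul_of_nonneg_left h1 (by norm_num)
    have h4 : (1 + 1 / (1 / 200) : ℝ) * (104 / 45) * mAs (mu ρ0) b N S ≤
        (1 + 1 / (1 / 200) : ℝ) * (104 / 45) * ((1 / 20000) * (mSq (mu ρ0) b N S / κ / 4)) :=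
      mul_le_mul_of_nonneg_left h2 (by norm_num)
    refine (add_le_add h3 h4).trans ?_
    have : (1 + 1 / 200 : ℝ) * (26 / 15) * ((10001 / 10000) * (mSq (mu ρ0) b N S / κ / 2)) +
        (1 + 1 / (1 / 200) : ℝ) * (104 / 45) * ((1 / 20000) * (mSq (mu ρ0) b N S / κ / 4)) =
        ((1 + 1 / 200) * (26 / 15) * (10001 / 10000) / 2 +
          (1 + 1 / (1 / 200)) * (104 / 45) * (1 / 20000) / 4) * (mSq (mu ρ0) b N S / κ) := by
      ring
    rw [this]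
    exact mul_le_mul_of_nonneg_right (by norm_num) hS2κ.le
  · -- `B`
    refine hMC.IB.trans ?_
    have e1 : mSq (mu ρ0) b N S / (2 * κ) = mSq (mu ρ0) b N S / κ / 2 := by field_simp
    rw [e1] at hT
    have h1 : mDE (mu ρ0) b N S ≤ (10001 / 10000) * (mSq (mu ρ0) b N S / κ / 2) := by
      refine hT.trans (mul_le_mul_of_nonneg_right (by linarith) (by positivity))
    linarith
  · -- `Fl`
    refine hMC.IF.trans (le_of_eq ?_)
    field_simp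

end Vale.Agent.P245.H485
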