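import Vale.Agent.P245.H485.FinS
import Vale.Agent.P245.H991.Spec
import Vale.Agent.P245.H766.BOW

/-! # P245, row FIN: Lemma U at `Ψ = Q = P_s(S)` from `H991.LUp` -/

open MeasureTheory Real Set Filter Topology

namespace Vale.Agent.P245.H485

open LS E1 Vale.Agent.P254.SP620 H792

variable {n : ℕ}

theorem sum_e2 {m : ℕ} (e : Fin m ≃ Fin n × Fin n) (G : Fin n → Fin n → ℝ) :
    ∑ a, G (e a).1 (e a).2 = ∑ i, ∑ j, G i j := by
  rw [Equiv.sum_comp e (fun p : Fin n × Fin n => G p.1 p.2), Fintype.sum_prod_type]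

theorem sum_e3 {m : ℕ} (e : Fin m ≃ Fin n × Fin n) (G : Fin n → Fin n → Fin n → ℝ) :
    ∑ a, ∑ k, G k (e a).1 (e a).2 = ∑ k, ∑ i, ∑ j, G k i j := by
  rw [Finset.sum_comm]
  exact Finset.sum_congr rfl fun k _ => sum_e2 e (G k)

theorem lus_of_lup {μ : Measure (Fin n → ℝ)} {b κ t θ g0 β : ℝ} {N : (Fin n → ℝ) → ℝ}
    {S : (Fin n → ℝ) → Matrix (Fin n) (Fin n) ℝ} (hθ : 0 ≤ θ)
    (hsym : ∀ y, (S y).transpose = S y) (hSB : SBm S)
    (h : H991.LUp μ κ b t β g0 N) : LUS μ b κ t θ g0 β N S := by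
  intro s hs m e
  have hPs : ∀ x, |Ps s x| ≤ 1 := fun x => by
    rw [abs_of_nonneg (Ps_nonneg s x)]; exact Ps_le_one s x
  have hSBP : SBm (PS s S) := fun i j => H736.SBM_Ps (S := S) hSB hsym hs.1 i j
  have h1 := h m (fun a y => PS s S y (e a).1 (e a).2) (PS s S) θ
    (fun a => hSBP (e a).1 (e a).2) hSBP
    (fun y => H736.mf_symm' (hsym y) (Ps s))
    (fun y => H766.fr_mf_mul_le (hsym y) hPs) hθ
  have e1 : H468.IP μ b N (fun a y => PS s S y (e a).1 (e a).2)
      (fun a y => PS s S y (e a).1 (e a).2) = mSq μ b N (PS s S) := by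
    unfold H468.IP mSq fr
    congr 1
    funext y
    rw [sum_e2 e (fun i j => PS s S y i j * PS s S y i j)]
    simp only [sq]
  have e2 : H468.DE μ b N (fun a y => PS s S y (e a).1 (e a).2) = mDE μ b N (PS s S) := by
    unfold H468.DE mDE
    congr 1
    funext y
    rw [sum_e3 e (fun k i j => pd (fun z => PS s S z i j) k y ^ 2)]
  have e3 : H991.fRE μ b N (fun a y => PS s S y (e a).1 (e a).2) (PS s S) =
      mRE μ b N (PS s S) (PS s S) := by
    unfold H991.fRE mRE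
    congr 1
    funext y
    rw [sum_e3 e (fun k i j => (pd (fun z => PS s S z i j) k y -
      ∑ f, PS s S y k f * pd (fun z => PS s S z i j) f y) ^ 2)]
  rw [e1, e2, e3] at h1
  exact h1

end Vale.Agent.P245.H485
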