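import Mathlib

/-! # P245, row FIN: integration over the scales and the final contradiction

Pure real-variable part: `scale_contra`. -/

open MeasureTheory Real Set Filter Topology

namespace Vale.Agent.P245.H485

/-- Young inequality for five terms. -/
theorem young5 (x1 x2 x3 x4 x5 : ℝ) :
    (x1 + x2 + x3 + x4 + x5) ^ 2 ≤
      101 / 100 * x1 ^ 2 + 404 * (x2 ^ 2 + x3 ^ 2 + x4 ^ 2 + x5 ^ 2) := by
  have h1 : (x2 + x3 + x4 + x5) ^ 2 ≤ 4 * (x2 ^ 2 + x3 ^ 2 + x4 ^ 2 + x5 ^ 2) := by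
    nlinarith [sq_nonneg (x2 - x3), sq_nonneg (x2 - x4), sq_nonneg (x2 - x5),
      sq_nonneg (x3 - x4), sq_nonneg (x3 - x5), sq_nonneg (x4 - x5)]
  have h2 : (x1 + x2 + x3 + x4 + x5) ^ 2 ≤
      101 / 100 * x1 ^ 2 + 101 * (x2 + x3 + x4 + x5) ^ 2 := by
    nlinarith [sq_nonneg (x1 / 10 - 10 * (x2 + x3 + x4 + x5))]
  linarith

/-- Young inequality for five terms with a free weight. -/
theorem young5' {d : ℝ} (hd : 0 < d) (x1 x2 x3 x4 x5 : ℝ) :
    (x1 + x2 + x3 + x4 + x5) ^ 2 ≤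
      (1 + d) * x1 ^ 2 + 4 * (1 + 1 / d) * (x2 ^ 2 + x3 ^ 2 + x4 ^ 2 + x5 ^ 2) := by
  have h1 : (x2 + x3 + x4 + x5) ^ 2 ≤ 4 * (x2 ^ 2 + x3 ^ 2 + x4 ^ 2 + x5 ^ 2) := by
    nlinarith [sq_nonneg (x2 - x3), sq_nonneg (x2 - x4), sq_nonneg (x2 - x5),
      sq_nonneg (x3 - x4), sq_nonneg (x3 - x5), sq_nonneg (x4 - x5)]
  have h2 : (x1 + x2 + x3 + x4 + x5) ^ 2 ≤
      (1 + d) * x1 ^ 2 + (1 + 1 / d) * (x2 + x3 + x4 + x5) ^ 2 := by
    have e : (1 + d) * x1 ^ 2 + (1 + 1 / d) * (x2 + x3 + x4 + x5) ^ 2 -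
        (x1 + x2 + x3 + x4 + x5) ^ 2 = (d * x1 - (x2 + x3 + x4 + x5)) ^ 2 / d := by
      field_simp
      ring
    have : 0 ≤ (d * x1 - (x2 + x3 + x4 + x5)) ^ 2 / d := by positivity
    linarith
  have h3 : 0 ≤ 1 + 1 / d := by positivity
  nlinarith [mul_le_mul_of_nonneg_left h1 h3]

/-- the pointwise consequence of Lemma U and of the three pointwise rows -/
theorem scale_pt {κ b t θ β I H al1 al2 q A B Dv Fl Gm Co : ℝ}
    (hκ : 0 < κ) (hb : 0 < b) (ht : 0 < t) (hθ : 0 < θ) (hI : 0 ≤ I) (hq : 0 ≤ q) (hA : 0 ≤ A)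
    (hB : 0 ≤ B) (hD : 0 ≤ Dv)
    (hLU : θ / 2 * (q - Co) - β - t / 2 * (I + θ * B) ≤
      κ * (√(θ * A) + √(q / t) + √Dv + √I + √(t / b * (I + θ * B))) ^ 2)
    (hHID : Co ≤ al1 * q + al2 / b * H + 2 * b * Fl)
    (hBO : Dv ≤ B + Fl + Gm / κ) :
    (1 - al1) * q ≤ 2 * (κ * (101 / 100)) * A + (t + 808 * κ * (t / b) + 808 * κ / θ) * B +
      (2 * b + 808 * κ / θ) * Fl + 808 / θ * Gm + 808 * κ / (t * θ) * q +
      (al2 / b * H + 2 * β / θ + t / θ * I + 808 * κ * (1 + t / b) / θ * I) := by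
  have hy := young5 (√(θ * A)) (√(q / t)) (√Dv) (√I) (√(t / b * (I + θ * B)))
  rw [sq_sqrt (by positivity), sq_sqrt (by positivity), sq_sqrt hD, sq_sqrt hI,
    sq_sqrt (by positivity)] at hy
  have h1 : θ / 2 * (q - Co) - β - t / 2 * (I + θ * B) ≤
      κ * (101 / 100 * (θ * A) + 404 * (q / t + (B + Fl + Gm / κ) + I +
        t / b * (I + θ * B))) := by
    refine hLU.trans (mul_le_mul_of_nonneg_left ?_ hκ.le)
    linarith
  have h2 : (1 - al1) * q ≤ (q - Co) + al2 / b * H + 2 * b * Fl := by linarith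
  have h3 : q - Co ≤ 2 / θ * (β + t / 2 * (I + θ * B) +
      κ * (101 / 100 * (θ * A) + 404 * (q / t + (B + Fl + Gm / κ) + I +
        t / b * (I + θ * B)))) := by
    have : θ / 2 * (q - Co) ≤ β + t / 2 * (I + θ * B) +
      κ * (101 / 100 * (θ * A) + 404 * (q / t + (B + Fl + Gm / κ) + I +
        t / b * (I + θ * B))) := by linarith
    have h4 : 2 / θ * (θ / 2 * (q - Co)) ≤ _ := mul_le_mul_of_nonneg_left this (by positivity)
    have h5 : 2 / θ * (θ / 2 * (q - Co)) = q - Co := by field_simp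
    rwa [h5] at h4
  have e : 2 / θ * (β + t / 2 * (I + θ * B) +
      κ * (101 / 100 * (θ * A) + 404 * (q / t + (B + Fl + Gm / κ) + I +
        t / b * (I + θ * B)))) =
      2 * (κ * (101 / 100)) * A + (t + 808 * κ * (t / b) + 808 * κ / θ) * B +
      (808 * κ / θ) * Fl + 808 / θ * Gm + 808 * κ / (t * θ) * q +
      (2 * β / θ + t / θ * I + 808 * κ * (1 + t / b) / θ * I) := by
    field_simp
    ring
  rw [e] at h3
  linarith

/-- the integrated inequality is contradictory (numbers only) -/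
theorem scale_num {κ b t θ β I H al1 al2 S2 G b' cF cG β0 IA IB IF IG : ℝ}
    (hκ : 0 < κ) (hb : 0 < b) (ht : 0 < t) (hθ : 0 < θ)
    (hS2 : 0 < S2) (hal1 : al1 ≤ 1 / 100) (hal2 : 0 ≤ al2) (hβ0 : 0 ≤ β0)
    (hIA : IA ≤ 22 / 25 * (S2 / κ)) (hIB : IB ≤ 3 * (S2 / κ)) (hIF : IF ≤ cF * (S2 / κ))
    (hIG : IG ≤ cG * S2)
    (hcr : 99 / 100 * S2 ≤ G) (hG : G ≤ S2)
    (hIS : κ * I ≤ 3 * S2) (hH : H ≤ κ * I) (hβ : β ≤ β0 * (κ * I))
    (hsmall : (3 * (t / κ) + 2424 * (t / b) + 2424 / θ) + (2 * b * cF / κ + 808 * cF / θ) +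
      808 * cG / θ + 1616 * κ / (t * θ) +
      2 * b' ^ 2 * (3 * al2 / b + 6 * β0 / θ + 3 * t / (θ * κ) + 2424 * (1 + t / b) / θ)
        ≤ 4 / 25)
    (hint : (1 - al1) * (2 * G) ≤ 2 * (κ * (101 / 100)) * IA +
      (t + 808 * κ * (t / b) + 808 * κ / θ) * IB + (2 * b + 808 * κ / θ) * IF +
      808 / θ * IG + 808 * κ / (t * θ) * (2 * G) +
      (al2 / b * H + 2 * β / θ + t / θ * I + 808 * κ * (1 + t / b) / θ * I) * (2 * b' ^ 2)) :
    False := by
  have hSκ : 0 < S2 / κ := by positivity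
  have k1 := mul_le_mul_of_nonneg_left hIA (show 0 ≤ 2 * (κ * (101 / 100)) by positivity)
  have k2 := mul_le_mul_of_nonneg_left hIB
    (show 0 ≤ t + 808 * κ * (t / b) + 808 * κ / θ by positivity)
  have k3 := mul_le_mul_of_nonneg_left hIF (show 0 ≤ 2 * b + 808 * κ / θ by positivity)
  have k4 := mul_le_mul_of_nonneg_left hIG (show 0 ≤ 808 / θ by positivity)
  have k5 : 808 * κ / (t * θ) * (2 * G) ≤ 808 * κ / (t * θ) * (2 * S2) :=
    mul_le_mul_of_nonneg_left (by linarith) (by positivity)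
  have hIS' : I ≤ 3 * S2 / κ := by
    rw [le_div_iff₀ hκ]; linarith
  have k6 : al2 / b * H ≤ al2 / b * (3 * S2) :=
    mul_le_mul_of_nonneg_left (by linarith) (by positivity)
  have k7 : 2 * β / θ ≤ 2 * (β0 * (3 * S2)) / θ := by
    have : β ≤ β0 * (3 * S2) := hβ.trans (mul_le_mul_of_nonneg_left hIS hβ0)
    gcongr
  have k8 : t / θ * I ≤ t / θ * (3 * S2 / κ) := mul_le_mul_of_nonneg_left hIS' (by positivity)
  have k9 : 808 * κ * (1 + t / b) / θ * I ≤ 808 * κ * (1 + t / b) / θ * (3 * S2 / κ) :=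
    mul_le_mul_of_nonneg_left hIS' (by positivity)
  have k10 : (al2 / b * H + 2 * β / θ + t / θ * I + 808 * κ * (1 + t / b) / θ * I) *
      (2 * b' ^ 2) ≤
      (al2 / b * (3 * S2) + 2 * (β0 * (3 * S2)) / θ + t / θ * (3 * S2 / κ) +
        808 * κ * (1 + t / b) / θ * (3 * S2 / κ)) * (2 * b' ^ 2) :=
    mul_le_mul_of_nonneg_right (by linarith) (by positivity)
  have hG0 : 0 ≤ G := le_trans (by positivity) hcr
  have k11 : 99 / 100 * (2 * (99 / 100 * S2)) ≤ (1 - al1) * (2 * G) := by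
    have h1 : 99 / 100 * (2 * (99 / 100 * S2)) ≤ 99 / 100 * (2 * G) := by linarith
    have h2 : 99 / 100 * (2 * G) ≤ (1 - al1) * (2 * G) :=
      mul_le_mul_of_nonneg_right (by linarith) (by linarith)
    exact h1.trans h2
  have key : 99 / 100 * (2 * (99 / 100 * S2)) ≤ 2 * (κ * (101 / 100)) * (22 / 25 * (S2 / κ)) +
      (t + 808 * κ * (t / b) + 808 * κ / θ) * (3 * (S2 / κ)) +
      (2 * b + 808 * κ / θ) * (cF * (S2 / κ)) + 808 / θ * (cG * S2) +
      808 * κ / (t * θ) * (2 * S2) +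
      (al2 / b * (3 * S2) + 2 * (β0 * (3 * S2)) / θ + t / θ * (3 * S2 / κ) +
        808 * κ * (1 + t / b) / θ * (3 * S2 / κ)) * (2 * b' ^ 2) := by
    clear hcr hG hIS hH hβ hsmall k6 k7 k8 k9 hIA hIB hIF hIG hSκ hIS'
    linarith
  have e : 2 * (κ * (101 / 100)) * (22 / 25 * (S2 / κ)) +
      (t + 808 * κ * (t / b) + 808 * κ / θ) * (3 * (S2 / κ)) +
      (2 * b + 808 * κ / θ) * (cF * (S2 / κ)) + 808 / θ * (cG * S2) +
      808 * κ / (t * θ) * (2 * S2) +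
      (al2 / b * (3 * S2) + 2 * (β0 * (3 * S2)) / θ + t / θ * (3 * S2 / κ) +
        808 * κ * (1 + t / b) / θ * (3 * S2 / κ)) * (2 * b' ^ 2) =
      S2 * (2 * (101 / 100) * (22 / 25) + ((3 * (t / κ) + 2424 * (t / b) + 2424 / θ) +
      (2 * b * cF / κ + 808 * cF / θ) +
      808 * cG / θ + 1616 * κ / (t * θ) +
      2 * b' ^ 2 * (3 * al2 / b + 6 * β0 / θ + 3 * t / (θ * κ) + 2424 * (1 + t / b) / θ))) := by
    field_simp
    ring
  rw [e] at key
  have := mul_le_mul_of_nonneg_left hsmall hS2.le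
  rw [mul_add] at key
  linarith

/-- **Integration over the scales and contradiction** ((13), (14), (16)).  `S2 = E|S|²`,
`q s = E|P_s(S)|²`, `A s = E|D P_s(S) (1 - P_s(S))|²`, `B s = E|D P_s(S)|²`,
`Dv s = E|div P_s(S)|²`, `Fl s = E tr (P_s N P_s)`, `Gm s` : the term of order zero of the Bochner
identity, `Co s` : second moment of the posterior mean of `P_s(S)`. -/
theorem scale_contra {κ b t θ β I H al1 al2 S2 G b' cF cG β0 : ℝ} {q A B Dv Fl Gm Co : ℝ → ℝ}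
    (hκ : 0 < κ) (hb : 0 < b) (ht : 0 < t) (hθ : 0 < θ) (hb' : 0 < b') (hI : 0 ≤ I)
    (hS2 : 0 < S2) (hal1 : al1 ≤ 1 / 100) (hal2 : 0 ≤ al2)
    (hβ0 : 0 ≤ β0)
    (hq : ∀ s ∈ Ioc 0 b', 0 ≤ q s) (hA : ∀ s ∈ Ioc 0 b', 0 ≤ A s)
    (hB : ∀ s ∈ Ioc 0 b', 0 ≤ B s) (hD : ∀ s ∈ Ioc 0 b', 0 ≤ Dv s)
    (hLU : ∀ s ∈ Ioc 0 b', θ / 2 * (q s - Co s) - β - t / 2 * (I + θ * B s) ≤
      κ * (√(θ * A s) + √(q s / t) + √(Dv s) + √I + √(t / b * (I + θ * B s))) ^ 2)
    (hHID : ∀ s ∈ Ioc 0 b', Co s ≤ al1 * q s + al2 / b * H + 2 * b * Fl s)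
    (hBO : ∀ s ∈ Ioc 0 b', Dv s ≤ B s + Fl s + Gm s / κ)
    (iq : IntervalIntegrable (fun s => q s * (4 * s)) volume 0 b')
    (iA : IntervalIntegrable (fun s => A s * (4 * s)) volume 0 b')
    (iB : IntervalIntegrable (fun s => B s * (4 * s)) volume 0 b')
    (iF : IntervalIntegrable (fun s => Fl s * (4 * s)) volume 0 b')
    (iG : IntervalIntegrable (fun s => Gm s * (4 * s)) volume 0 b')
    (Iq : ∫ s in (0 : ℝ)..b', q s * (4 * s) = 2 * G)
    (IA : ∫ s in (0 : ℝ)..b', A s * (4 * s) ≤ 22 / 25 * (S2 / κ))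
    (IB : ∫ s in (0 : ℝ)..b', B s * (4 * s) ≤ 3 * (S2 / κ))
    (IF : ∫ s in (0 : ℝ)..b', Fl s * (4 * s) ≤ cF * (S2 / κ))
    (IG : ∫ s in (0 : ℝ)..b', Gm s * (4 * s) ≤ cG * S2)
    (hcr : 99 / 100 * S2 ≤ G) (hG : G ≤ S2)
    (hIS : κ * I ≤ 3 * S2) (hH : H ≤ κ * I) (hβ : β ≤ β0 * (κ * I))
    (hsmall : (3 * (t / κ) + 2424 * (t / b) + 2424 / θ) + (2 * b * cF / κ + 808 * cF / θ) +
      808 * cG / θ + 1616 * κ / (t * θ) +
      2 * b' ^ 2 * (3 * al2 / b + 6 * β0 / θ + 3 * t / (θ * κ) + 2424 * (1 + t / b) / θ)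
        ≤ 4 / 25) : False := by
  have hpt : ∀ s ∈ Ioc 0 b', (1 - al1) * (q s * (4 * s)) ≤
      2 * (κ * (101 / 100)) * (A s * (4 * s)) +
      (t + 808 * κ * (t / b) + 808 * κ / θ) * (B s * (4 * s)) +
      (2 * b + 808 * κ / θ) * (Fl s * (4 * s)) + 808 / θ * (Gm s * (4 * s)) +
      808 * κ / (t * θ) * (q s * (4 * s)) +
      (al2 / b * H + 2 * β / θ + t / θ * I + 808 * κ * (1 + t / b) / θ * I) * (4 * s) := by
    intro s hs
    have h := scale_pt hκ hb ht hθ hI (hq s hs) (hA s hs) (hB s hs) (hD s hs) (hLU s hs)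
      (hHID s hs) (hBO s hs)
    have h4 : 0 ≤ 4 * s := by have := hs.1; positivity
    have := mul_le_mul_of_nonneg_right h h4
    nlinarith [this]
  have int4 : (∫ x in (0 : ℝ)..b', 4 * x) = 2 * b' ^ 2 := by
    rw [intervalIntegral.integral_const_mul, integral_id]; ring
  have i4 : IntervalIntegrable (fun s : ℝ => 4 * s) volume 0 b' :=
    (continuous_const.mul continuous_id).intervalIntegrable _ _
  have hL : IntervalIntegrable (fun s => (1 - al1) * (q s * (4 * s))) volume 0 b' :=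
    iq.const_mul _
  have j1 := (iA.const_mul (2 * (κ * (101 / 100))))
  have j2 := (iB.const_mul (t + 808 * κ * (t / b) + 808 * κ / θ))
  have j3 := (iF.const_mul (2 * b + 808 * κ / θ))
  have j4 := (iG.const_mul (808 / θ))
  have j5 := (iq.const_mul (808 * κ / (t * θ)))
  have j6 := (i4.const_mul (al2 / b * H + 2 * β / θ + t / θ * I +
    808 * κ * (1 + t / b) / θ * I))
  have hint := intervalIntegral.integral_mono_on_of_le_Ioo hb'.le hL
    (((((j1.add j2).add j3).add j4).add j5).add j6)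
    (fun s hs => hpt s ⟨hs.1, hs.2.le⟩)
  rw [intervalIntegral.integral_add ((((j1.add j2).add j3).add j4).add j5) j6,
    intervalIntegral.integral_add (((j1.add j2).add j3).add j4) j5,
    intervalIntegral.integral_add ((j1.add j2).add j3) j4,
    intervalIntegral.integral_add (j1.add j2) j3, intervalIntegral.integral_add j1 j2] at hint
  rw [intervalIntegral.integral_const_mul (1 - al1),
    intervalIntegral.integral_const_mul (2 * (κ * (101 / 100))),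
    intervalIntegral.integral_const_mul (t + 808 * κ * (t / b) + 808 * κ / θ),
    intervalIntegral.integral_const_mul (2 * b + 808 * κ / θ),
    intervalIntegral.integral_const_mul (808 / θ),
    intervalIntegral.integral_const_mul (808 * κ / (t * θ)),
    intervalIntegral.integral_const_mul (al2 / b * H + 2 * β / θ + t / θ * I +
      808 * κ * (1 + t / b) / θ * I), Iq, int4] at hint
  exact scale_num hκ hb ht hθ hS2 hal1 hal2 hβ0 IA IB IF IG hcr hG hIS hH hβ hsmall hint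

end Vale.Agent.P245.H485
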