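import Vale.Agent.P245.H485.Scale

/-! # P245, row FIN: the smallness hypothesis of `scale_contra` for `κ` large -/

open Real Set

namespace Vale.Agent.P245.H485

/-- Choice of constants.  `b ∈ [2κ/C0, 3κ/C0]`, `t = ε b`, `θ = c b`, slack `≤ C·I`; the only
quantities which are not divided by `κ` are `2424 ε + 9 ε/C0` and the flats `2 b cF / κ ≤ φ`. -/
theorem hsmall_of {C0 ε c C al2 cG φ : ℝ} (hC0 : 0 < C0) (hε : 0 < ε) (hc : 0 < c) (hC : 0 ≤ C)
    (hal2 : 0 ≤ al2) (hcG : 0 ≤ cG) (hsum : 9 * ε / C0 + 2424 * ε + φ ≤ 3 / 20) :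
    ∃ K : ℝ, 0 < K ∧ ∀ κ b cF : ℝ, K ≤ κ → 2 * (κ / C0) ≤ b → b ≤ 3 * (κ / C0) →
      0 ≤ cF → 2 * b * cF / κ ≤ φ →
      (3 * ((ε * b) / κ) + 2424 * ((ε * b) / b) + 2424 / (c * b)) +
        (2 * b * cF / κ + 808 * cF / (c * b)) + 808 * cG / (c * b) +
        1616 * κ / ((ε * b) * (c * b)) +
        2 * (1 : ℝ) ^ 2 * (3 * al2 / b + 6 * (C / κ) / (c * b) + 3 * (ε * b) / ((c * b) * κ) +
          2424 * (1 + (ε * b) / b) / (c * b)) ≤ 4 / 25 := by
  -- all remaining terms are `≤ D / κ`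
  set D : ℝ := 2424 * (C0 / (2 * c)) + 808 * (φ * C0 / 4 * (C0 / (2 * c))) +
    808 * cG * (C0 / (2 * c)) + 1616 * (C0 ^ 2 / (4 * ε * c)) +
    2 * (3 * al2 * (C0 / 2) + 6 * C * (C0 / (2 * c)) + 3 * ε / c +
      2424 * (1 + ε) * (C0 / (2 * c))) with hD
  refine ⟨max 1 (100 * |D|), by positivity, fun κ b cF hκ hb1 hb2 hcF hφ => ?_⟩
  have hκ1 : 1 ≤ κ := (le_max_left _ _).trans hκ
  have hκ0 : 0 < κ := by linarith
  have hDκ : 100 * D ≤ κ := (mul_le_mul_of_nonneg_left (le_abs_self D) (by norm_num)).trans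
    ((le_max_right _ _).trans hκ)
  have hb : 0 < b := lt_of_lt_of_le (by positivity) hb1
  have hib : 1 / b ≤ C0 / (2 * κ) := by
    rw [div_le_div_iff₀ hb (by positivity)]
    have : 2 * (κ / C0) * C0 ≤ b * C0 := mul_le_mul_of_nonneg_right hb1 hC0.le
    have e : 2 * (κ / C0) * C0 = 2 * κ := by field_simp
    rw [e] at this
    linarith
  have hbk : b / κ ≤ 3 / C0 := by
    rw [div_le_div_iff₀ hκ0 hC0]
    have : b * C0 ≤ 3 * (κ / C0) * C0 := mul_le_mul_of_nonneg_right hb2 hC0.le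
    have e : 3 * (κ / C0) * C0 = 3 * κ := by field_simp
    rw [e] at this
    linarith
  have hφ0 : 0 ≤ φ := le_trans (by positivity) hφ
  -- `cF ≤ φ C0 / 4`
  have hcF' : cF ≤ φ * C0 / 4 := by
    have h1 : 2 * (2 * (κ / C0)) * cF / κ ≤ 2 * b * cF / κ := by gcongr
    have e : 2 * (2 * (κ / C0)) * cF / κ = 4 * cF / C0 := by field_simp; ring
    rw [e] at h1
    have h2 : 4 * cF / C0 ≤ φ := h1.trans hφ
    rw [div_le_iff₀ hC0] at h2
    linarith
  have t1 : 3 * ((ε * b) / κ) ≤ 9 * ε / C0 := by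
    have : 3 * ((ε * b) / κ) = 3 * ε * (b / κ) := by ring
    rw [this]
    calc 3 * ε * (b / κ) ≤ 3 * ε * (3 / C0) := by gcongr
      _ = 9 * ε / C0 := by ring
  have t2 : 2424 * ((ε * b) / b) = 2424 * ε := by field_simp
  have t2' : (ε * b) / b = ε := by field_simp
  have icb : 1 / (c * b) ≤ C0 / (2 * c) / κ := by
    have : 1 / (c * b) = 1 / c * (1 / b) := by field_simp
    rw [this]
    calc 1 / c * (1 / b) ≤ 1 / c * (C0 / (2 * κ)) := by gcongr
      _ = C0 / (2 * c) / κ := by field_simp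
  have t3 : 2424 / (c * b) ≤ 2424 * (C0 / (2 * c)) / κ := by
    calc 2424 / (c * b) = 2424 * (1 / (c * b)) := by ring
      _ ≤ 2424 * (C0 / (2 * c) / κ) := by gcongr
      _ = _ := by ring
  have t4 : 808 * cF / (c * b) ≤ 808 * (φ * C0 / 4 * (C0 / (2 * c))) / κ := by
    calc 808 * cF / (c * b) = 808 * cF * (1 / (c * b)) := by ring
      _ ≤ 808 * (φ * C0 / 4) * (C0 / (2 * c) / κ) := by gcongr
      _ = _ := by ring
  have t5 : 808 * cG / (c * b) ≤ 808 * cG * (C0 / (2 * c)) / κ := by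
    calc 808 * cG / (c * b) = 808 * cG * (1 / (c * b)) := by ring
      _ ≤ 808 * cG * (C0 / (2 * c) / κ) := by gcongr
      _ = _ := by ring
  have t6 : 1616 * κ / ((ε * b) * (c * b)) ≤ 1616 * (C0 ^ 2 / (4 * ε * c)) / κ := by
    have e : 1616 * κ / ((ε * b) * (c * b)) = 1616 * κ / (ε * c) * (1 / b * (1 / b)) := by
      field_simp
    rw [e]
    calc 1616 * κ / (ε * c) * (1 / b * (1 / b))
        ≤ 1616 * κ / (ε * c) * (C0 / (2 * κ) * (C0 / (2 * κ))) := by gcongr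
      _ = _ := by field_simp; ring
  have t7 : 3 * al2 / b ≤ 3 * al2 * (C0 / 2) / κ := by
    calc 3 * al2 / b = 3 * al2 * (1 / b) := by ring
      _ ≤ 3 * al2 * (C0 / (2 * κ)) := by gcongr
      _ = _ := by field_simp
  have t8 : 6 * (C / κ) / (c * b) ≤ 6 * C * (C0 / (2 * c)) / κ := by
    have hCκ : C / κ ≤ C := div_le_self hC hκ1
    calc 6 * (C / κ) / (c * b) = 6 * (C / κ) * (1 / (c * b)) := by ring
      _ ≤ 6 * C * (C0 / (2 * c) / κ) := by gcongr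
      _ = _ := by ring
  have t9 : 3 * (ε * b) / ((c * b) * κ) = 3 * ε / c / κ := by field_simp
  have t10 : 2424 * (1 + ε) / (c * b) ≤ 2424 * (1 + ε) * (C0 / (2 * c)) / κ := by
    calc 2424 * (1 + ε) / (c * b) = 2424 * (1 + ε) * (1 / (c * b)) := by ring
      _ ≤ 2424 * (1 + ε) * (C0 / (2 * c) / κ) := by gcongr
      _ = _ := by ring
  rw [t2', t2'] at *
  have hfin : D / κ ≤ 1 / 100 := by
    rw [div_le_iff₀ hκ0]; linarith
  have hDe : D / κ = 2424 * (C0 / (2 * c)) / κ + 808 * (φ * C0 / 4 * (C0 / (2 * c))) / κ +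
    808 * cG * (C0 / (2 * c)) / κ + 1616 * (C0 ^ 2 / (4 * ε * c)) / κ +
    2 * (3 * al2 * (C0 / 2) / κ + 6 * C * (C0 / (2 * c)) / κ + 3 * ε / c / κ +
      2424 * (1 + ε) * (C0 / (2 * c)) / κ) := by
    rw [hD]; ring
  rw [t9]
  rw [hDe] at hfin
  linarith

end Vale.Agent.P245.H485
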