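import Vale.Agent.P245.H485.StaticOf
import Vale.Agent.P245.H792.MCd
import Vale.Agent.P245.H154.Cracks3

/-! # P245: the static half -/

open MeasureTheory Real Set Filter Topology

namespace Vale.Agent.P245.H485

open LS E1 Vale.Agent.P254.SP620 H792

theorem mct : MCT := fun _ _ _ _ _ _ hρ hp hc hb hN hsym hS =>
  haveI := hp
  H792.mcout hρ hc hb hN hsym hS

theorem crt : CRT 2000000 (1 / 20000) (1 / 10 ^ 8) (10 ^ 23) := by
  intro Ka
  refine ⟨max 1 |Ka|, ?_⟩
  intro n ρ0 R κ r N f g0 _ hρ hp hc _ hκ g _ hg1 hL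
  have hκ1 : 1 ≤ κ := (le_max_left _ _).trans hκ
  have hκ2 : Ka ≤ κ := (le_abs_self _).trans ((le_max_right _ _).trans hκ)
  have h := H154.crack_lev (θ := 1 / 300) hρ hc (by linarith) (by norm_num) g hg1 hL
    (by norm_num) (by norm_num) (by norm_num) (by norm_num) (by norm_num) (by norm_num)
    (by norm_num) (by
      have : κ ≤ 1 / 300 / 20 * (10 ^ 23 * κ) := by
        have e : (1 / 300 / 20 * (10 ^ 23 * κ) : ℝ) = (10 ^ 23 / 6000) * κ := by ring
        rw [e]
        have h1 : (1 : ℝ) ≤ 10 ^ 23 / 6000 := by norm_num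
        nlinarith
      linarith)
  have e : (1 - 3 * (1 / 300) : ℝ) = 99 / 100 := by norm_num
  rw [e] at h
  exact h

/-- **the static half of the proof of Bizeul's conjecture** -/
theorem staticT : H991.StaticT :=
  static_of (C0 := 2000000) (h := 1 / 20000) (ep := 1 / 10 ^ 8) (M := 10 ^ 23)
    (by norm_num) (by norm_num) (by norm_num) (by norm_num) (by norm_num) (by norm_num)
    (by norm_num) mct crt

end Vale.Agent.P245.H485
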