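import Vale.Agent.P245.H485.LUS
import Vale.Agent.P245.H670.OfGL
import Vale.Agent.P245.H676.Cr3

/-! # P245: the static half, from the scale integrals (`MCT`) and the crack bound (`CRT`) -/

open MeasureTheory Real Set Filter Topology

namespace Vale.Agent.P245.H485

open LS E1 Vale.Agent.P254.SP620 H792

variable {n : ℕ}

theorem mTr_le {μ : Measure (Fin n → ℝ)} {r : ℝ} {N : (Fin n → ℝ) → ℝ} [IsProbabilityMeasure μ]
    (hN : Pos N) {S : (Fin n → ℝ) → Matrix (Fin n) (Fin n) ℝ} (hS : SBm S)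
    (hsym : ∀ y, (S y).transpose = S y) {c : ℝ} (hc : 0 < c) :
    mTr μ r N c S ≤ mSq μ r N S := by
  rw [H676.mTr_eq hN hS hsym hc]
  have h0 : 0 ≤ EY μ r (fun y => N y * (S y * S y * mf (Ps c) (S y)).trace) := by
    refine EY_nonneg _ _ fun y => mul_nonneg (hN.pos y).le ?_
    obtain ⟨U, m, h⟩ := exists_dec (hsym y)
    have e1 : S y * S y = mf (fun x => x * x) (S y) := by
      have h1 := h.mf_mul (fun x => x) (fun x => x)
      rw [h.mf_id] at h1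
      exact h1
    rw [e1, h.mf_mul, h.mf_trace]
    exact Finset.sum_nonneg fun i _ => mul_nonneg (mul_self_nonneg _) (Ps_nonneg _ _)
  linarith

theorem mFl_nonneg {ρ0 : (Fin n → ℝ) → ℝ} {R r : ℝ} {N : (Fin n → ℝ) → ℝ} (hρ : LCd ρ0)
    [IsProbabilityMeasure (mu ρ0)] (hc : CSupp (mu ρ0) R) (hr : 0 < r) (hN : Pos N)
    {A : (Fin n → ℝ) → Matrix (Fin n) (Fin n) ℝ} (hA : SBm A) : 0 ≤ mFl (mu ρ0) r N A := by
  rw [H670.mFl_eq hc hr hN hA]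
  exact Finset.sum_nonneg fun k _ =>
    (thP n ρ0 R hρ inferInstance hc r N (fun i y => A y i k) (fun i y => A y i k) hr hN
      (fun i => hA i k) (fun i => hA i k)).1

/-- the scale integrals (row MC) -/
def MCT : Prop :=
  ∀ (n : ℕ) (ρ0 : (Fin n → ℝ) → ℝ) (R b : ℝ) (N : (Fin n → ℝ) → ℝ)
    (S : (Fin n → ℝ) → Matrix (Fin n) (Fin n) ℝ), LCd ρ0 → IsProbabilityMeasure (mu ρ0) →
    CSupp (mu ρ0) R → 0 < b → Pos N → (∀ y, (S y).transpose = S y) → SBm S →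
    MCout (mu ρ0) b N S

/-- the crack bound (row CR), constants `C0`, `h`, `ep`, `M` -/
def CRT (C0 h ep M : ℝ) : Prop :=
  ∀ Ka : ℝ, ∃ K1 : ℝ, ∀ (n : ℕ) (ρ0 : (Fin n → ℝ) → ℝ) (R κ r : ℝ)
    (N : (Fin n → ℝ) → ℝ) (f : Fin n → (Fin n → ℝ) → ℝ) (g0 : ℝ), 1 ≤ n → LCd ρ0 →
    IsProbabilityMeasure (mu ρ0) → CSupp (mu ρ0) R → ExpM (mu ρ0) 1 → K1 ≤ κ →
    H991.GLev (mu ρ0) C0 κ r N f h Ka M → 0 ≤ g0 → g0 ^ 2 ≤ FI (mu ρ0) r N / κ →
    H991.LUp (mu ρ0) κ r (ep * r) (Ka * FI (mu ρ0) r N) g0 N →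
    99 / 100 * mSq (mu ρ0) r N (Sf κ f) ≤ mTr (mu ρ0) r N 1 (Sf κ f)

theorem static_of {C0 h ep M : ℝ} (hC0 : 4000 ≤ C0) (hh0 : 0 < h) (hh : h ≤ 1 / 20000)
    (hC0h : 100 ≤ C0 * h) (hep0 : 0 < ep) (hep : ep ≤ 1 / 100000) (hM : 1 ≤ M) (hMC : MCT)
    (hCR : CRT C0 h ep M) : H991.StaticT := by
  refine ⟨C0, h, ep, M, hC0, hh0, by linarith, hC0h, hep0, by linarith, hM, ?_⟩
  intro Ka
  have hC0' : 0 < C0 := by linarith
  have hsum : 9 * ep / C0 + 2424 * ep + 12 * h ≤ 3 / 20 := by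
    have : 9 * ep / C0 ≤ 9 * ep := by
      apply div_le_self (by positivity) (by linarith)
    linarith
  obtain ⟨K, hK0, hK⟩ := fin_S (C0 := C0) (ε := ep) (Ka := |Ka|) (Kg := 1) (h := h) hC0' hep0
    (abs_nonneg _) zero_le_one hh hsum
  obtain ⟨K1, hK1⟩ := hCR Ka
  refine ⟨max K K1, ?_⟩
  intro n ρ0 R κ r N f g0 hn hρ hp hc hE hκ g hg0 hg1 hL
  have hκ0 : 0 < κ := lt_of_lt_of_le hK0 ((le_max_left _ _).trans hκ)
  have hr : 0 < r := lt_of_lt_of_le (by positivity) g.lo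
  have s := H670.sout_of_glev hρ hc hC0' hκ0 hh0.le (by linarith) g
  have hcr := hK1 n ρ0 R κ r N f g0 hn hρ hp hc hE ((le_max_right _ _).trans hκ) g hg0 hg1 hL
  have hFI := g.F0
  refine hK ρ0 R κ r g0 (Ka * FI (mu ρ0) r N) N (Sf κ f) hρ hp hc hE
    ((le_max_left _ _).trans hκ) g.lo g.hi g.pos g.one s.symm s.sb hg0 (by rw [one_mul]; exact hg1)
    (mul_le_mul_of_nonneg_right (le_abs_self _) hFI.le) hFI.le g.he s.pos s.fi ?_ ?_
    (mFl_nonneg hρ hc hr g.pos s.sb) s.fl hcr (mTr_le g.pos s.sb s.symm one_pos)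
    (hMC n ρ0 R r N (Sf κ f) hρ hp hc hr g.pos s.symm s.sb)
    (lus_of_lup (by positivity) s.symm s.sb hL)
  · have := s.ds
    rwa [mul_div_assoc] at this
  · have := s.as
    rw [mul_div_assoc] at this
    exact this

end Vale.Agent.P245.H485
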